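import Vale.Agent.P032.BMain

namespace Vale.Agent.Results.P032.Six

theorem result (k : ℕ) (c : EuclideanSpace ℝ (Fin 2) → Fin k)
    (hc : ∀ x y : EuclideanSpace ℝ (Fin 2), dist x y = 1 → c x ≠ c y) : 6 ≤ k :=
  Vale.Agent.P032.six_le k c hc

end Vale.Agent.Results.P032.Six
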