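import Vale.Agent.P032.ATransfer

namespace Vale.Agent.Results.P032.Transfer

open MeasureTheory

theorem result (k : ℕ) (c : ℂ → Fin k) (hc : ∀ x y : ℂ, dist x y = 1 → c x ≠ c y) :
    ∃ c' : ℂ → Fin k, Measurable c' ∧
      ∀ u : ℂ, ‖u‖ = 1 → ∀ᵐ x : ℂ ∂volume, c' x ≠ c' (x + u) :=
  Vale.Agent.P032.transfer k c hc

end Vale.Agent.Results.P032.Transfer
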